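import Vale.Agent.P265.T.Alg

/-! Part L: classes of degree zero and one read on a connected cover. PLAN. dT T ψ x [y] = T x y * ψ y [] - ψ x [], dT T φ x [y, z] = T x y * φ y [z] - φ x [z] + φ x [y] (simp [dT, d0]).
cov_h0: for ψ ∈ Zc T 0 the function u ↦ ε u * ψ (p u) [] is locally constant (IsLocallyConstant.iff_eventually_eq / iff_exists_open), so constant (IsLocallyConstant.apply_eq_of_preconnectedSpace); hne gives c = -c, so c = 0 in ZMod 3 (decide); ψ ∈ Bc by mem_Bc_of_lz; Hc is a subsingleton (mk_eq_zero_iff), finrank_zero_of_subsingleton.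
cov_h1: Φ k x l = match l with | [y] => if h : ∃ q : X × X, p q.1 = x ∧ p q.2 = y ∧ R q.1 q.2 then ε q.1 * (k q.2 - k q.1) (q = h.choose) else 0 | _ => 0; additive in k. For u, v with R u v, Φ k (p u) [p v] = ε u * (k v - k u). Near p a use the neighbourhood p '' U (open map): cocycle; CS since N is compact (K = univ).
If a • Φ k1 + b • Φ k2 ∈ Bc with primitive ψ then u ↦ ε u * ψ (p u) [] - (a * k1 u + b * k2 u) is locally constant, so constant; hind. LinearIndependent.pair_iff, LinearIndependent.fintype_card_le_finrank. -/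

open Set Topology Filter

noncomputable section
namespace Vale.Agent.P265.L

variable {X N : Type} [TopologicalSpace X] [PreconnectedSpace X] [TopologicalSpace N]
  {p : X → N} {T : N → N → F3} {ε : X → F3}

theorem lcov_const (hp : Continuous p) (hε : ∀ u, ε u * ε u = 1)
    (hT : ∀ a, ∃ U ∈ 𝓝 a, ∀ u ∈ U, ∀ v ∈ U, T (p u) (p v) = ε u * ε v) {φ ψ : Co N} {k : X → F3}
    (h : ∀ a, LZ 1 (φ - dT T ψ) a)
    (hφ : ∀ a, ∃ U ∈ 𝓝 a, ∀ u ∈ U, ∀ v ∈ U, φ (p u) [p v] = ε u * (k v - k u)) (u v : X) :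
    ε u * ψ (p u) [] - k u = ε v * ψ (p v) [] - k v := by
  refine IsLocallyConstant.apply_eq_of_preconnectedSpace (f := fun u => ε u * ψ (p u) [] - k u)
    ((IsLocallyConstant.iff_eventually_eq _).2 fun a => ?_) u v
  obtain ⟨U, hU, h1⟩ := hT a
  obtain ⟨V, hV, h2⟩ := hφ a
  obtain ⟨O, hO, h3⟩ := h (p a)
  filter_upwards [hU, hV, hp.continuousAt.preimage_mem_nhds hO] with b hb1 hb2 hb3
  have h4 := h3 (p a) [p b] rfl (mem_of_mem_nhds hO) (by simpa using hb3)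
  simp only [Pi.sub_apply, dT, d0, sub_zero] at h4
  rw [h1 a (mem_of_mem_nhds hU) b hb1, h2 a (mem_of_mem_nhds hV) b hb2] at h4
  linear_combination (-ε a) * h4 + (k b - k a - ε b * ψ (p b) []) * hε a

open Classical in
/-- The cochain of a function on the cover. -/
def lcov_Phi (p : X → N) (R : X → X → Prop) (ε k : X → F3) : Co N := fun x l =>
  match l with
  | [y] => if h : ∃ q : X × X, p q.1 = x ∧ p q.2 = y ∧ R q.1 q.2 then
      ε h.choose.1 * (k h.choose.2 - k h.choose.1) else 0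
  | _ => 0

omit [TopologicalSpace X] [PreconnectedSpace X] [TopologicalSpace N] in
theorem lcov_Phi_eq {R : X → X → Prop} {k : X → F3}
    (hk : ∀ u v u' v', R u v → R u' v' → p u = p u' → p v = p v' →
      ε u * (k v - k u) = ε u' * (k v' - k u')) {u v : X} (h : R u v) :
    lcov_Phi p R ε k (p u) [p v] = ε u * (k v - k u) := by
  have h1 : ∃ q : X × X, p q.1 = p u ∧ p q.2 = p v ∧ R q.1 q.2 := ⟨(u, v), rfl, rfl, h⟩
  simp only [lcov_Phi, dif_pos h1]
  exact hk _ _ _ _ h1.choose_spec.2.2 h h1.choose_spec.1 h1.choose_spec.2.1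

omit [PreconnectedSpace X] in
theorem lcov_mem [CompactSpace N] (hp : IsOpenQuotientMap p) (hε : ∀ u, ε u * ε u = 1)
    (hT : ∀ a, ∃ U ∈ 𝓝 a, ∀ u ∈ U, ∀ v ∈ U, T (p u) (p v) = ε u * ε v) {R : X → X → Prop}
    (hR : ∀ a, ∃ U ∈ 𝓝 a, ∀ u ∈ U, ∀ v ∈ U, R u v) {k : X → F3}
    (hk : ∀ u v u' v', R u v → R u' v' → p u = p u' → p v = p v' →
      ε u * (k v - k u) = ε u' * (k v' - k u')) : lcov_Phi p R ε k ∈ Zc T 1 := by
  refine ⟨⟨univ, isCompact_univ, fun a ha => (ha (mem_univ a)).elim⟩, fun x => ?_⟩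
  obtain ⟨a, rfl⟩ := hp.surjective x
  obtain ⟨U, hU, h1⟩ := hT a
  obtain ⟨V, hV, h2⟩ := hR a
  refine ⟨p '' (U ∩ V), hp.isOpenMap.image_mem_nhds (inter_mem hU hV), ?_⟩
  rintro _ l hl ⟨u, hu, rfl⟩ hy
  match l, hl, hy with
  | [y, z], _, hy =>
    obtain ⟨v, hv, rfl⟩ := hy y (by simp)
    obtain ⟨w, hw, rfl⟩ := hy z (by simp)
    simp only [dT, d0, sub_zero]
    rw [h1 u hu.1 v hv.1, lcov_Phi_eq hk (h2 v hv.2 w hw.2), lcov_Phi_eq hk (h2 u hu.2 w hw.2),
      lcov_Phi_eq hk (h2 u hu.2 v hv.2)]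
    linear_combination (ε u * (k w - k v)) * hε v

theorem cov_h0 (hp : IsOpenQuotientMap p) (hε : ∀ u, ε u * ε u = 1)
    (hT : ∀ a, ∃ U ∈ 𝓝 a, ∀ u ∈ U, ∀ v ∈ U, T (p u) (p v) = ε u * ε v)
    (hne : ∃ u v, p u = p v ∧ ε v = -ε u) : Module.finrank F3 (Hc T 0) = 0 := by
  have : Subsingleton (Hc T 0) := by
    refine subsingleton_of_forall_eq 0 fun c => ?_
    obtain ⟨ψ, rfl⟩ := Submodule.Quotient.mk_surjective _ c
    refine (mk_eq_zero_iff ψ).2 (mem_Bc_of_lz fun a => ⟨univ, univ_mem, fun x l hl _ _ => ?_⟩)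
    have h := lcov_const hp.continuous hε hT (φ := 0) (ψ := ψ.1) (k := 0)
      (fun a => by rw [zero_sub]; exact (ψ.2.2 a).neg) fun a => ⟨univ, univ_mem, by simp⟩
    simp only [Pi.zero_apply, sub_zero] at h
    obtain ⟨u, v, h1, h2⟩ := hne
    obtain ⟨w, rfl⟩ := hp.surjective x
    have h3 := h u v
    rw [h2, ← h1, neg_mul] at h3
    have h4 : ∀ c : F3, c = -c → c = 0 := by decide
    have h5 := (h w u).trans (h4 _ h3)
    rw [List.length_eq_zero_iff.1 hl]
    linear_combination ε w * h5 - ψ.1 (p w) [] * hε w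
  exact Module.finrank_zero_of_subsingleton

theorem cov_h1 [CompactSpace N] (hp : IsOpenQuotientMap p) (hε : ∀ u, ε u * ε u = 1)
    (hT : ∀ a, ∃ U ∈ 𝓝 a, ∀ u ∈ U, ∀ v ∈ U, T (p u) (p v) = ε u * ε v) {R : X → X → Prop}
    (hR : ∀ a, ∃ U ∈ 𝓝 a, ∀ u ∈ U, ∀ v ∈ U, R u v) {k1 k2 : X → F3}
    (hk : ∀ u v u' v', R u v → R u' v' → p u = p u' → p v = p v' →
      ε u * (k1 v - k1 u) = ε u' * (k1 v' - k1 u') ∧ ε u * (k2 v - k2 u) = ε u' * (k2 v' - k2 u'))
    (hind : ∀ a b : F3, (∀ u v, p u = p v → ε u = ε v →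
      a * k1 u + b * k2 u = a * k1 v + b * k2 v) → a = 0 ∧ b = 0)
    [FiniteDimensional F3 (Hc T 1)] : 2 ≤ Module.finrank F3 (Hc T 1) := by
  have hk1 := fun u v u' v' a b c d => (hk u v u' v' a b c d).1
  have hk2 := fun u v u' v' a b c d => (hk u v u' v' a b c d).2
  have hli : LinearIndependent F3 ![(Submodule.Quotient.mk ⟨_, lcov_mem hp hε hT hR hk1⟩ : Hc T 1),
      Submodule.Quotient.mk ⟨_, lcov_mem hp hε hT hR hk2⟩] := by
    refine LinearIndependent.pair_iff.2 fun a b h => ?_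
    rw [← Submodule.Quotient.mk_smul, ← Submodule.Quotient.mk_smul, ← Submodule.Quotient.mk_add,
      mk_eq_zero_iff] at h
    obtain ⟨ψ, -, hψ⟩ := h
    have h1 := lcov_const hp.continuous hε hT (k := fun u => a * k1 u + b * k2 u) hψ fun c => by
      obtain ⟨U, hU, h2⟩ := hR c
      refine ⟨U, hU, fun u hu v hv => ?_⟩
      show a * lcov_Phi p R ε k1 (p u) [p v] + b * lcov_Phi p R ε k2 (p u) [p v] = _
      rw [lcov_Phi_eq hk1 (h2 u hu v hv), lcov_Phi_eq hk2 (h2 u hu v hv)]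
      ring
    refine hind a b fun u v h2 h3 => ?_
    have h4 := h1 u v
    rw [h2, h3] at h4
    linear_combination -h4
  simpa using hli.fintype_card_le_finrank

end Vale.Agent.P265.L
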