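import Vale.Agent.P265.L.Defs
import Vale.Agent.P265.T.Tau

/-! Part L: explicit functions on `R4`. PLAN. od (-x) = - od x (Int.floor_neg, Int.ceil_neg), od (x + n) = od x + 2 n. ep: w = rt (exp (2π t)) / exp (π t) has w ^ 2 = 1 (rt_sq), so w = 1 or w = -1 (as complex numbers), sn (w * z) = sn w * sn z when re z ≠ 0; exp (π (t + n)) = (-1)^n exp (π t).
ep_T: rt τu / rt τv = (w u / w v) * exp (π (t - t')), cos (π (t - t')) > 0. xt_act: with j = ⌊s⌋, J = j + m (Int.floor_add_intCast): xt (act u) = xt u + a - 3 J b for n even, and - xt u + 3 J (J+1) / 2 + a - 3 J b for n odd (J (J+1) = 2 e, Int.even_mul_succ_self); (3 : ZMod 3) = 0.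
cl_unique: differences of integers of absolute value < 1/2 vanish: first m, n, then b, then a (the expression x - x' - 3 s (y - y') is multiplied by sg n under act). cl_loc: continuity in (u, v) at (a, a), then a product neighbourhood (mem_nhds_prod_self_iff / eventually_prod_self). -/

open Set Topology Filter

noncomputable section
namespace Vale.Agent.P265.L

/-- An odd integer part. -/
def od (x : ℝ) : F3 := ((⌊x⌋ + ⌈x⌉ : ℤ) : F3)

/-- The sign of a group element. -/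
def sz (n : ℤ) : F3 := if Even n then 1 else -1

/-- Trivialisation of the local system on the cover. -/
def ep (u : R4) : F3 := sn (rt (Circle.exp (2 * Real.pi * u.2.1)) / Circle.exp (Real.pi * u.2.1))

/-- Corrected coordinate. -/
def xt (u : R4) : ℝ := u.2.2.1 - 3 * ⌊u.1⌋ * u.2.2.2 + 3 * ⌊u.1⌋ * (⌊u.1⌋ + 1) / 4

/-- An invariant neighbourhood of the diagonal. -/
def Cl (u v : R4) : Prop := |u.1 - v.1| < 1 / 4 ∧ |u.2.1 - v.2.1| < 1 / 4 ∧
  |u.2.2.2 - v.2.2.2| < 1 / 4 ∧ |u.2.2.1 - v.2.2.1 - 3 * u.1 * (u.2.2.2 - v.2.2.2)| < 1 / 4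

theorem sz_sq (n : ℤ) : sz n * sz n = 1 := by
  unfold sz
  split_ifs <;> simp

theorem ep_sq (u : R4) : ep u * ep u = 1 := by
  exact sn_mul_self _

theorem lkf_cases (n : ℤ) : (sg n = 1 ∧ sz n = 1) ∨ (sg n = -1 ∧ sz n = -1) := by
  rcases sg_cases n with h | h
  · exact Or.inl ⟨h.1, if_pos h.2⟩
  · exact Or.inr ⟨h.1, if_neg (Int.not_even_iff_odd.2 h.2)⟩

theorem lkf_re (x : ℝ) : ((Circle.exp x : Circle) : ℂ).re = Real.cos x := by
  rw [Circle.coe_exp, Complex.exp_ofReal_mul_I_re]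

theorem lkf_exp_sq (x : ℝ) : Circle.exp (Real.pi * x) ^ 2 = Circle.exp (2 * Real.pi * x) := by
  rw [pow_two, ← Circle.exp_add]
  congr 1
  ring

theorem lkf_w (t : ℝ) :
    (rt (Circle.exp (2 * Real.pi * t)) / Circle.exp (Real.pi * t)) ^ 2 = 1 := by
  rw [div_pow, rt_sq, lkf_exp_sq, div_self']

theorem lkf_one {z : Circle} (h : z ^ 2 = 1) : 0 < ((z ^ 2 : Circle) : ℂ).re := by
  rw [h]
  simp

theorem lkf_int_exp (n : ℤ) : Circle.exp (2 * Real.pi * n) = 1 := Circle.exp_two_pi_mul_int n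

theorem lkf_sn_int (n : ℤ) : sn (Circle.exp (Real.pi * n)) = sz n := by
  have h : Real.cos (Real.pi * n) = sg n := by
    rw [mul_comm, Real.cos_int_mul_pi]
    rfl
  rw [sn, lkf_re, h]
  rcases lkf_cases n with h1 | h1 <;> rw [h1.1, h1.2] <;> norm_num

theorem ep_act (m n a b : ℤ) (u : R4) : ep (act m n a b u) = sz n * ep u := by
  have e : (act m n a b u).2.1 = u.2.1 + n := rfl
  rw [ep, ep, e, mul_add, mul_add, Circle.exp_add, Circle.exp_add, lkf_int_exp, mul_one,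
    ← div_div, sn_div (lkf_one (lkf_w _)) (lkf_one (by rw [lkf_exp_sq, lkf_int_exp])),
    lkf_sn_int, mul_comm]

theorem lkf_cos {x : ℝ} (h : |x| < 1 / 2) : 0 < Real.cos (Real.pi * x) := by
  obtain ⟨h1, h2⟩ := abs_lt.1 h
  have := Real.pi_pos
  exact Real.cos_pos_of_mem_Ioo ⟨by nlinarith, by nlinarith⟩

theorem ep_T {u v : R4} (h : |u.2.1 - v.2.1| < 1 / 4) :
    sn (rt (Circle.exp (2 * Real.pi * u.2.1)) / rt (Circle.exp (2 * Real.pi * v.2.1))) =
      ep u * ep v := by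
  obtain ⟨h1, h2⟩ := abs_lt.1 h
  set e := Circle.exp (Real.pi * (v.2.1 - u.2.1)) with he
  have e1 : 0 < ((e ^ 2 : Circle) : ℂ).re := by
    rw [he, lkf_exp_sq, lkf_re, mul_comm 2, mul_assoc]
    exact lkf_cos (abs_lt.2 ⟨by linarith, by linarith⟩)
  have e2 : sn e = 1 := by
    rw [sn, he, lkf_re, if_pos (lkf_cos (abs_lt.2 ⟨by linarith, by linarith⟩))]
  have e3 : e = Circle.exp (Real.pi * v.2.1) / Circle.exp (Real.pi * u.2.1) := by
    rw [he, mul_sub, Circle.exp_sub]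
  have e4 : rt (Circle.exp (2 * Real.pi * u.2.1)) / rt (Circle.exp (2 * Real.pi * v.2.1)) =
      rt (Circle.exp (2 * Real.pi * u.2.1)) / Circle.exp (Real.pi * u.2.1) /
        (rt (Circle.exp (2 * Real.pi * v.2.1)) / Circle.exp (Real.pi * v.2.1)) / e := by
    rw [e3]
    simp only [div_eq_mul_inv, mul_inv, inv_inv]
    apply Subtype.ext
    simp only [Circle.coe_mul, Circle.coe_inv]
    field_simp
  rw [e4, sn_div (lkf_one (by rw [div_pow, lkf_w, lkf_w, div_self'])) e1, e2, mul_one,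
    sn_div (lkf_one (lkf_w _)) (lkf_one (lkf_w _))]
  rfl

theorem lkf_od_add (x : ℝ) (k : ℤ) : od (x + k) = od x + 2 * k := by
  rw [od, od, Int.floor_add_intCast, Int.ceil_add_intCast]
  push_cast
  ring

theorem lkf_od_neg (x : ℝ) : od (-x) = -od x := by
  rw [od, od, Int.floor_neg, Int.ceil_neg]
  push_cast
  ring

theorem lkf_three : (3 : F3) = 0 := rfl

theorem k1_act (m n a b : ℤ) (u : R4) :
    od (2 * (act m n a b u).2.2.2) = sz n * od (2 * u.2.2.2) + (2 * sz n * m + b) := by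
  have e : (act m n a b u).2.2.2 = sg n * (u.2.2.2 + m / 2) + b := rfl
  rcases lkf_cases n with h | h
  · have e1 : 2 * (act m n a b u).2.2.2 = 2 * u.2.2.2 + ((m + 2 * b : ℤ) : ℝ) := by
      rw [e, h.1]
      push_cast
      ring
    rw [e1, lkf_od_add, h.2]
    push_cast
    linear_combination (b : F3) * lkf_three
  · have e1 : 2 * (act m n a b u).2.2.2 = -(2 * u.2.2.2) + ((-m + 2 * b : ℤ) : ℝ) := by
      rw [e, h.1]
      push_cast
      ring
    rw [e1, lkf_od_add, lkf_od_neg, h.2]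
    push_cast
    linear_combination (b : F3) * lkf_three

theorem k2_act (m n a b : ℤ) (u : R4) : od (xt (act m n a b u)) = sz n * od (xt u) + 2 * a := by
  have e : xt (act m n a b u) = sg n * (u.2.2.1 + 3 * m * u.2.2.2 + 3 * m * (m - 1) / 4) + a -
      3 * ((⌊u.1⌋ + m : ℤ) : ℝ) * (sg n * (u.2.2.2 + m / 2) + b) +
        3 * ((⌊u.1⌋ + m : ℤ) : ℝ) * (((⌊u.1⌋ + m : ℤ) : ℝ) + 1) / 4 := by
    rw [← Int.floor_add_intCast]
    rfl
  rcases lkf_cases n with h | h
  · have e1 : xt (act m n a b u) = xt u + ((a - 3 * ((⌊u.1⌋ + m) * b) : ℤ) : ℝ) := by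
      rw [e, h.1, xt]
      push_cast
      ring
    rw [e1, lkf_od_add, h.2]
    push_cast
    linear_combination (-2 * (((⌊u.1⌋ : ℤ) + m : F3) * b)) * lkf_three
  · obtain ⟨k, hk⟩ := Int.even_mul_succ_self (⌊u.1⌋ + m)
    have hk' : ((⌊u.1⌋ : ℝ) + m) * ((⌊u.1⌋ : ℝ) + m + 1) = k + k := by exact_mod_cast hk
    have e1 : xt (act m n a b u) = -xt u + ((a + 3 * (k - (⌊u.1⌋ + m) * b) : ℤ) : ℝ) := by
      rw [e, h.1, xt]
      push_cast
      linear_combination (3 / 2) * hk'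
    rw [e1, lkf_od_add, lkf_od_neg, h.2]
    push_cast
    linear_combination (2 * (k - ((⌊u.1⌋ : ℤ) + m : F3) * b)) * lkf_three

theorem cl_loc (a : R4) : ∃ U ∈ 𝓝 a, ∀ u ∈ U, ∀ v ∈ U, Cl u v := by
  have h : IsOpen {w : R4 × R4 | Cl w.1 w.2} := by
    have o : ∀ g : R4 × R4 → ℝ, Continuous g → IsOpen {w | g w < 1 / 4} := fun g hg =>
      isOpen_lt hg continuous_const
    exact (o (fun w => |w.1.1 - w.2.1|) (by fun_prop)).inter
      ((o (fun w => |w.1.2.1 - w.2.2.1|) (by fun_prop)).inter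
      ((o (fun w => |w.1.2.2.2 - w.2.2.2.2|) (by fun_prop)).inter
      (o (fun w => |w.1.2.2.1 - w.2.2.2.1 - 3 * w.1.1 * (w.1.2.2.2 - w.2.2.2.2)|) (by fun_prop))))
  have h1 : {w : R4 × R4 | Cl w.1 w.2} ∈ 𝓝 a ×ˢ 𝓝 a := by
    rw [← nhds_prod_eq]
    refine h.mem_nhds ?_
    simp [Cl]
  obtain ⟨U, hU, h2⟩ := mem_prod_self_iff.1 h1
  exact ⟨U, hU, fun u hu v hv => h2 (mk_mem_prod hu hv)⟩

theorem lkf_int {m m' : ℤ} {x y : ℝ} (h1 : |x| < 1 / 4) (h2 : |y| < 1 / 4)
    (e : y = x + m - m' ∨ y = -x + m - m') : m = m' := by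
  obtain ⟨a1, a2⟩ := abs_lt.1 h1
  obtain ⟨b1, b2⟩ := abs_lt.1 h2
  have c1 : (m : ℝ) < m' + 1 := by rcases e with e | e <;> linarith
  have c2 : (m' : ℝ) < m + 1 := by rcases e with e | e <;> linarith
  have d1 : m < m' + 1 := by exact_mod_cast c1
  have d2 : m' < m + 1 := by exact_mod_cast c2
  omega

theorem cl_unique {u v : R4} {m n a b m' n' a' b' : ℤ} (h : Cl u v)
    (h' : Cl (act m n a b u) (act m' n' a' b' v)) : m = m' ∧ n = n' ∧ a = a' ∧ b = b' := by
  obtain ⟨h1, h2, h3, h4⟩ := h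
  obtain ⟨k1, k2, k3, k4⟩ := h'
  have em : m = m' := lkf_int h1 k1 (Or.inl (by simp only [act]; ring))
  have en : n = n' := lkf_int h2 k2 (Or.inl (by simp only [act]; ring))
  subst em en
  have eb : b = b' := by
    refine lkf_int h3 k3 ?_
    rcases sg_cases n with h | h
    · exact Or.inl (by simp only [act, h.1]; ring)
    · exact Or.inr (by simp only [act, h.1]; ring)
  subst eb
  refine ⟨rfl, rfl, lkf_int h4 k4 ?_, rfl⟩
  rcases sg_cases n with h | h
  · exact Or.inl (by simp only [act, h.1]; ring)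
  · exact Or.inr (by simp only [act, h.1]; ring)

end Vale.Agent.P265.L
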