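import Vale.Agent.P265.L.Nil
import Vale.Agent.P265.L.Cov
import Vale.Agent.P265.L.Kf

/-! Part L: twisted cohomology of the nilmanifold in degrees zero and one. -/

open Set Topology Filter

noncomputable section
namespace Vale.Agent.P265.L

theorem IsNil.low {N : Type} [TopologicalSpace N] {p : R4 → N} (h : IsNil p) {σt : N → Circle}
    (ht : ∀ u, σt (p u) = Circle.exp (2 * Real.pi * u.2.1)) {b : ℕ → ℕ} (hb : HT N σt b) :
    b 0 = 0 ∧ 2 ≤ b 1 := by
  have := h.compact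
  have hT : ∀ a, ∃ U ∈ 𝓝 a, ∀ u ∈ U, ∀ v ∈ U, Tt σt (p u) (p v) = ep u * ep v := fun a => by
    obtain ⟨U, hU, hc⟩ := cl_loc a
    exact ⟨U, hU, fun u hu v hv => by rw [Tt, ht, ht, ep_T (hc u hu v hv).2.1]⟩
  refine ⟨?_, ?_⟩
  · rw [← (hb 0).2]
    refine cov_h0 h.oq ep_sq hT ⟨0, act 0 1 0 0 0, (h.eq _ _).2 ⟨0, 1, 0, 0, rfl⟩, ?_⟩
    rw [ep_act]
    simp [sz]
  · rw [← (hb 1).2]
    have := (hb 1).1
    refine cov_h1 (k1 := fun u => od (2 * u.2.2.2)) (k2 := fun u => od (xt u)) h.oq ep_sq hT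
      cl_loc ?_ ?_
    · intro u v u' v' h1 h2 hu hv
      obtain ⟨m, n, a, b, rfl⟩ := (h.eq _ _).1 hu
      obtain ⟨m', n', a', b', rfl⟩ := (h.eq _ _).1 hv
      obtain ⟨rfl, rfl, rfl, rfl⟩ := cl_unique h1 h2
      simp only [k1_act, k2_act, ep_act]
      exact ⟨by linear_combination (-(ep u) * (od (2 * v.2.2.2) - od (2 * u.2.2.2))) * sz_sq n,
        by linear_combination (-(ep u) * (od (xt v) - od (xt u))) * sz_sq n⟩
    · intro a b hab
      have e1 := hab 0 (act 0 0 1 0 0) ((h.eq _ _).2 ⟨0, 0, 1, 0, rfl⟩) (by rw [ep_act]; simp [sz])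
      have e2 := hab 0 (act 0 0 0 1 0) ((h.eq _ _).2 ⟨0, 0, 0, 1, rfl⟩) (by rw [ep_act]; simp [sz])
      simp only [k1_act, k2_act] at e1 e2
      have z : sz 0 = 1 := by simp [sz]
      have t3 : (3 : F3) = 0 := rfl
      rw [z] at e1 e2
      push_cast at e1 e2
      exact ⟨by linear_combination -e2, by linear_combination e1 + b * t3⟩

end Vale.Agent.P265.L
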