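import Vale.Agent.P265.T.Api2

/-! Part L: mapping tori. PLAN. Y = {σ = 1} is closed. c : ℝ → ℝ, c r = π + 2 arctan r ∈ (0, 2π) (see T/Api2.lean, where Circle.exp ∘ c or a similar map is shown to be an open embedding onto {1}ᶜ). j (y, r) = φ (c r) y is continuous, injective, with range {σ ≠ 1} and
continuous inverse w ↦ (φ (-c (g w)) w, g w), g w = the preimage of σ w; so an open embedding (IsOpenEmbedding.of_continuous_injective_isOpenMap, or IsEmbedding via a left inverse continuous on the open range).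
τ (j (y, r)) = τ y * κ ^ 2 by lift2 for h (s, (y, r)) = τ (φ (s * c r) y) / τ y; ht_homeo (Homeomorph.refl _), ht_real give HT (Y × ℝ) (τ ∘ j) (sh 1 g). ht_les gives h, r with sh 1 g n + g n = h n + r n + prev r n and r n ≤ g n; k n = g n - r n (funext, cases n, omega). -/

open Set Topology Filter

noncomputable section
namespace Vale.Agent.P265.L

theorem ltor_ang : ∃ A : Circle → ℝ, (∀ z, Circle.exp (Real.pi + A z) = z) ∧
    (∀ z, z ≠ 1 → -Real.pi < A z ∧ A z < Real.pi ∧ ContinuousAt A z) ∧
    ∀ s, -Real.pi < s → s < Real.pi → A (Circle.exp (Real.pi + s)) = s ∧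
      Circle.exp (Real.pi + s) ≠ 1 := by
  have h2 : Circle.exp Real.pi * Circle.exp Real.pi = 1 := by
    rw [← Circle.exp_add, ← two_mul, Circle.exp_two_pi]
  have h0 : ∀ z : Circle, Circle.exp (Real.pi + Complex.arg (z / Circle.exp Real.pi : Circle)) = z :=
    fun z => by rw [Circle.exp_add, Circle.exp_arg, mul_div_cancel]
  have h1 : ∀ s, -Real.pi < s → s ≤ Real.pi →
      Complex.arg (Circle.exp (Real.pi + s) / Circle.exp Real.pi : Circle) = s := fun s a b => by
    rw [Circle.exp_add, mul_div_cancel_left, Circle.arg_exp a b]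
  refine ⟨fun z => Complex.arg (z / Circle.exp Real.pi : Circle), h0, fun z hz => ?_,
    fun s a b => ⟨h1 s a b.le, fun e => ?_⟩⟩
  · have h3 : Complex.arg (z / Circle.exp Real.pi : Circle) ≠ Real.pi := fun e =>
      hz (by rw [← h0 z, e, Circle.exp_add, h2])
    refine ⟨Complex.neg_pi_lt_arg _, (Complex.arg_le_pi _).lt_of_ne h3, ?_⟩
    exact ContinuousAt.comp (f := fun z : Circle => ((z / Circle.exp Real.pi : Circle) : ℂ))
      (Complex.continuousAt_arg (Complex.mem_slitPlane_iff_arg.2 ⟨h3, Circle.coe_ne_zero _⟩))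
      (by fun_prop)
  · have h3 := h1 s a b.le
    rw [e, ← h2, ← Circle.exp_add, h1 _ (by linarith [Real.pi_pos]) le_rfl] at h3
    exact b.ne h3.symm

theorem ltor_emb {W : Type} [MetricSpace W] (φ : Flow ℝ W)
    {σ : W → Circle} (hσ : Continuous σ) (hφ : ∀ r w, σ (φ r w) = σ w * Circle.exp r) :
    IsOpenEmbedding (fun p : {w // σ w = 1} × ℝ => φ (Real.pi + 2 * Real.arctan p.2) p.1.1) ∧
      range (fun p : {w // σ w = 1} × ℝ => φ (Real.pi + 2 * Real.arctan p.2) p.1.1) =
        {w | σ w ≠ 1} := by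
  obtain ⟨A, h1, h2, h3⟩ := ltor_ang
  have ha : ∀ r, -Real.pi < 2 * Real.arctan r ∧ 2 * Real.arctan r < Real.pi := fun r =>
    ⟨by linarith [Real.neg_pi_div_two_lt_arctan r], by linarith [Real.arctan_lt_pi_div_two r]⟩
  have hs : ∀ p : {w // σ w = 1} × ℝ, σ (φ (Real.pi + 2 * Real.arctan p.2) p.1.1) =
      Circle.exp (Real.pi + 2 * Real.arctan p.2) := fun p => by rw [hφ, p.1.2, one_mul]
  have hA : ContinuousOn (fun w => A (σ w)) {w | σ w ≠ 1} := fun w hw =>
    ((h2 _ hw).2.2.comp hσ.continuousAt).continuousWithinAt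
  let e : OpenPartialHomeomorph ({w // σ w = 1} × ℝ) W :=
    { toFun := fun p => φ (Real.pi + 2 * Real.arctan p.2) p.1.1
      invFun := fun w => (⟨φ (-(Real.pi + A (σ w))) w, by
        rw [hφ, Circle.exp_neg, h1, mul_inv_cancel]⟩, Real.tan (A (σ w) / 2))
      source := univ
      target := {w | σ w ≠ 1}
      map_source' := fun p _ => by
        show σ _ ≠ 1
        rw [hs]
        exact (h3 _ (ha _).1 (ha _).2).2
      map_target' := fun _ _ => mem_univ _
      left_inv' := fun p _ => by
        refine Prod.ext (Subtype.ext ?_) ?_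
        · simp only [hs, (h3 _ (ha _).1 (ha _).2).1]
          rw [← φ.map_add, neg_add_cancel, φ.map_zero_apply]
        · simp only [hs, (h3 _ (ha _).1 (ha _).2).1]
          rw [mul_div_cancel_left₀ _ two_ne_zero, Real.tan_arctan]
      right_inv' := fun w hw => by
        obtain ⟨a, b, -⟩ := h2 _ hw
        simp only
        rw [Real.arctan_tan (by linarith) (by linarith), mul_div_cancel₀ _ two_ne_zero,
          ← φ.map_add, add_neg_cancel, φ.map_zero_apply]
      open_source := isOpen_univ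
      open_target := isOpen_ne_fun hσ continuous_const
      continuousOn_toFun := (φ.continuous (by fun_prop) (by fun_prop)).continuousOn
      continuousOn_invFun := by
        refine ContinuousOn.prodMk ?_ ?_
        · exact (IsInducing.subtypeVal (t := {w | σ w = 1})).continuousOn_iff.2
            (φ.cont'.comp_continuousOn ((continuousOn_const.add hA).neg.prodMk continuousOn_id))
        · refine Real.continuousOn_tan_Ioo.comp (hA.div_const 2) fun w hw => ?_
          obtain ⟨a, b, -⟩ := h2 _ hw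
          exact ⟨by linarith, by linarith⟩ }
  exact ⟨e.isOpenEmbedding rfl, image_univ.symm.trans e.image_source_eq_target⟩

theorem ht_torus {W : Type} [MetricSpace W] [LocallyCompactSpace W] (φ : Flow ℝ W)
    {σ : W → Circle} (hσ : Continuous σ) (hφ : ∀ r w, σ (φ r w) = σ w * Circle.exp r)
    {τ : W → Circle} (hτ : Continuous τ) {g : ℕ → ℕ}
    (hg : HT {w // σ w = 1} (fun w => τ w.1) g) :
    ∃ k : ℕ → ℕ, HT W τ fun n => k n + prev k n := by
  obtain ⟨h1, h2⟩ := ltor_emb φ hσ hφ
  have hc : IsClosed {w | σ w = 1} := isClosed_eq hσ continuous_const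
  have : LocallyCompactSpace {w // σ w = 1} := hc.locallyCompactSpace
  obtain ⟨κ, hκ, e⟩ := lift2 (W := {w // σ w = 1} × ℝ)
    ⟨fun p => τ (φ ((p.1 : ℝ) * (Real.pi + 2 * Real.arctan p.2.2)) p.2.1.1) / τ p.2.1.1,
      (hτ.comp (φ.continuous (by fun_prop) (by fun_prop))).div' (by fun_prop)⟩
    (fun x => by simp)
  have h3 := (ht_homeo (Homeomorph.refl ({w // σ w = 1} × ℝ))
    (τ := τ ∘ fun p => φ (Real.pi + 2 * Real.arctan p.2) p.1.1) (τ' := fun p => τ p.1.1)
    (by fun_prop) hκ (fun x => by rw [← e]; simp) (sh 1 g)).2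
    ((ht_real (τ := fun w : {w // σ w = 1} => τ w.1) (by fun_prop) _).2 ⟨g, hg, rfl⟩)
  obtain ⟨h, r, h4, h5⟩ := ht_les hτ h1 hc.isClosedEmbedding_subtypeVal
    (by rw [h2, Subtype.range_coe]; ext; simp) h3 hg
  refine ⟨fun n => g n - r n, ?_⟩
  convert h4 using 2 with n
  obtain ⟨a, b, -⟩ := h5 n
  cases n with
  | zero =>
    simp only [sh, prev] at a ⊢
    simp at a
    omega
  | succ n =>
    have := (h5 n).2.1
    simp only [sh, prev] at a ⊢
    simp at a
    omega

end Vale.Agent.P265.L
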