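import Vale.Agent.P265.L.Nil
import Vale.Agent.P265.L.Tor

/-! Part L: shape of the Betti numbers of the nilmanifold. PLAN. tor2: ht_unit, ht_circle for Unit × Circle (homeomorphic to Circle, Homeomorph.uniqueProd / punitProd), ht_circle for Circle × Circle.
betti: σs from h.sig; Y = {σt = 1} closed in the compact N; the flow h.flow (1 / (2π)) 0 preserves σt, restrict it to Y (build the Flow on the subtype by hand or Flow.restrict); its fibre {y : Y // σs y = 1} is homeomorphic to Circle × Circle (h.fibre, IsEmbedding.toHomeomorphOfSurjective for the codomain restriction);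
ht_homeo with κ = 1, ht_torus on Y with τ = 1; (fun w => τ w.1) = 1 on Y by hτ1; ht_torus on N with h.flow 0 (1 / (2π)). -/

open Set Topology Filter

noncomputable section
namespace Vale.Agent.P265.L

theorem tor2 : ∃ g, HT (Circle × Circle) 1 g := by
  have h1 := (ht_circle (W := Unit) (τ := 1) continuous_const _).2 ⟨_, ht_unit, fun _ => rfl⟩
  have h2 := (ht_homeo (Homeomorph.uniqueProd Unit Circle) (τ' := 1) continuous_const
    (κ := fun _ => 1) continuous_const (fun x => by simp) _).1 h1
  exact ⟨_, (ht_circle (W := Circle) (τ := 1) continuous_const _).2 ⟨_, h2, fun _ => rfl⟩⟩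

theorem lnilb_exp (s r : ℝ) : Circle.exp (2 * Real.pi * (s + r * (1 / (2 * Real.pi)))) =
    Circle.exp (2 * Real.pi * s) * Circle.exp r := by
  rw [← Circle.exp_add]
  congr 1
  have := Real.pi_pos
  field_simp

theorem IsNil.betti {N : Type} [MetricSpace N] {p : R4 → N} (h : IsNil p) {σt : N → Circle}
    (hc : Continuous σt) (ht : ∀ u, σt (p u) = Circle.exp (2 * Real.pi * u.2.1))
    {τ : N → Circle} (hτ : Continuous τ) (hτ1 : ∀ x, σt x = 1 → τ x = 1) :
    ∃ k : ℕ → ℕ, HT N τ fun n => k n + prev k n := by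
  have := h.compact
  obtain ⟨σs, σ', hcs, -, hs, -⟩ := h.sig
  obtain ⟨φ, hφ⟩ := h.flow (1 / (2 * Real.pi)) 0
  obtain ⟨ψ, hψ⟩ := h.flow 0 (1 / (2 * Real.pi))
  obtain ⟨j, hj, hr⟩ := h.fibre hs ht
  obtain ⟨g, hg⟩ := tor2
  have hY : IsClosed {w | σt w = 1} := isClosed_eq hc continuous_const
  have : CompactSpace {w // σt w = 1} := isCompact_iff_compactSpace.1 hY.isCompact
  have e1 : ∀ r w, σt (φ r w) = σt w := fun r w => by
    obtain ⟨u, rfl⟩ := h.oq.surjective w
    rw [hφ, ht, ht]
    simp
  have e2 : ∀ r w, σs (φ r w) = σs w * Circle.exp r := fun r w => by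
    obtain ⟨u, rfl⟩ := h.oq.surjective w
    rw [hφ, hs, hs, lnilb_exp]
  have e3 : ∀ r w, σt (ψ r w) = σt w * Circle.exp r := fun r w => by
    obtain ⟨u, rfl⟩ := h.oq.surjective w
    rw [hψ, ht, ht, lnilb_exp]
  let φ' : Flow ℝ {w // σt w = 1} :=
    { toFun := fun r w => ⟨φ r w.1, (e1 r w.1).trans w.2⟩
      cont' := (φ.continuous continuous_fst (continuous_subtype_val.comp continuous_snd)).subtype_mk _
      map_add' := fun a b w => Subtype.ext (φ.map_add a b w.1)
      map_zero' := fun w => Subtype.ext (φ.map_zero_apply w.1) }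
  have hm : ∀ z, σs (j z) = 1 ∧ σt (j z) = 1 := fun z => by
    have : j z ∈ range j := mem_range_self z
    rwa [hr] at this
  let j' : Circle × Circle → {y : {w // σt w = 1} // σs y.1 = 1} :=
    fun z => ⟨⟨j z, (hm z).2⟩, (hm z).1⟩
  have hj' : IsEmbedding j' :=
    IsEmbedding.of_comp ((hj.continuous.subtype_mk _).subtype_mk _)
      (continuous_subtype_val.comp continuous_subtype_val) hj.isEmbedding
  have hs' : Function.Surjective j' := fun y => by
    have : y.1.1 ∈ range j := by
      rw [hr]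
      exact ⟨y.2, y.1.2⟩
    obtain ⟨z, hz⟩ := this
    exact ⟨z, Subtype.ext (Subtype.ext hz)⟩
  have h1 : HT {y : {w // σt w = 1} // σs y.1 = 1}
      (fun y => (1 : {w // σt w = 1} → Circle) y.1) g :=
    (ht_homeo (hj'.toHomeomorphOfSurjective hs') (τ := 1) (τ' := fun _ => (1 : Circle))
      continuous_const (κ := fun _ => 1) continuous_const (fun x => by simp) _).1 hg
  obtain ⟨k, hk⟩ := ht_torus φ' (σ := fun y => σs y.1) (hcs.comp continuous_subtype_val)
    (fun r w => e2 r w.1) (τ := 1) continuous_const h1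
  have e4 : (fun w : {w // σt w = 1} => τ w.1) = 1 := funext fun w => hτ1 w.1 w.2
  exact ht_torus ψ hc e3 hτ (e4 ▸ hk)

end Vale.Agent.P265.L
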