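import Vale.Agent.P265.L.Nil
import Vale.Agent.P265.T.Api2

/-! Part L: the sphere factor. PLAN. compact: closed and bounded in R3 (each coordinate has square ≤ 1; Metric.isCompact_of_isClosed_isBounded, isCompact_iff_compactSpace).
stereo: j w = ((a² + b² - 1) / (a² + b² + 1), 2a / (..), 2b / (..)), a = w 0, b = w 1, pole (1, 0, 0), inverse y ↦ ![y.2.1 / (1 - y.1), y.2.2 / (1 - y.1)] continuous on the open complement of the pole (on the sphere y.1 = 1 iff y is the pole).
sph_betti: ht_split with j = Prod.map id j, i x = (x, pole), p = fst (isProperMap_fst_of_compactSpace), ht_pi. homeo: f (x, y) = π (surjInv x, y); f (p u, y) = π (u, y) by Rel7 with c = 1; continuous via (h.oq.prodMap IsOpenQuotientMap.id).isQuotientMap;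
injective (c • y with dot = 1 forces c = 1), surjective (normalise y by (sqrt (dot y y))⁻¹); Continuous.homeoOfEquivCompactToT2. -/

open Set Topology Filter

noncomputable section
namespace Vale.Agent.P265.L

theorem compact_S2 : CompactSpace S2 := by
  refine isCompact_iff_compactSpace.1 (?_ : IsCompact {y : R3 | dot y y = 1})
  refine (isCompact_closedBall (0 : R3) 1).of_isClosed_subset
    (isClosed_eq (by unfold dot; fun_prop) continuous_const) fun y hy => ?_
  have h : y.1 * y.1 + y.2.1 * y.2.1 + y.2.2 * y.2.2 = 1 := hy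
  have h1 := mul_self_nonneg y.1
  have h2 := mul_self_nonneg y.2.1
  have h3 := mul_self_nonneg y.2.2
  rw [mem_closedBall_zero_iff, Prod.norm_def, Prod.norm_def, max_le_iff, max_le_iff]
  exact ⟨abs_le_one_iff_mul_self_le_one.2 (by linarith),
    abs_le_one_iff_mul_self_le_one.2 (by linarith), abs_le_one_iff_mul_self_le_one.2 (by linarith)⟩

/-- the pole -/
def lsph_n : S2 := ⟨(1, 0, 0), by simp [dot]⟩

/-- inverse stereographic projection -/
def lsph_j (w : Fin 2 → ℝ) : S2 :=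
  ⟨((w 0 ^ 2 + w 1 ^ 2 - 1) / (w 0 ^ 2 + w 1 ^ 2 + 1), 2 * w 0 / (w 0 ^ 2 + w 1 ^ 2 + 1),
    2 * w 1 / (w 0 ^ 2 + w 1 ^ 2 + 1)), by
    have : w 0 ^ 2 + w 1 ^ 2 + 1 ≠ 0 := by positivity
    simp only [dot]
    field_simp
    ring⟩

/-- stereographic projection -/
def lsph_g (y : S2) : Fin 2 → ℝ := ![y.1.2.1 / (1 - y.1.1), y.1.2.2 / (1 - y.1.1)]

theorem lsph_ne {y : S2} (hy : y ≠ lsph_n) : 1 - y.1.1 ≠ 0 := by
  intro h
  obtain ⟨⟨a, b, c⟩, hd⟩ := y
  have h0 : a * a + b * b + c * c = 1 := hd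
  have ha : a = 1 := by simp only at h; linarith
  subst ha
  have hb : b = 0 := by nlinarith [mul_self_nonneg b, mul_self_nonneg c]
  have hc : c = 0 := by nlinarith [mul_self_nonneg b, mul_self_nonneg c]
  subst hb hc
  exact hy rfl

theorem lsph_one (w : Fin 2 → ℝ) : 1 - (lsph_j w).1.1 = 2 / (w 0 ^ 2 + w 1 ^ 2 + 1) := by
  have : w 0 ^ 2 + w 1 ^ 2 + 1 ≠ 0 := by positivity
  simp only [lsph_j]
  field_simp
  ring

theorem lsph_gj (w : Fin 2 → ℝ) : lsph_g (lsph_j w) = w := by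
  have : w 0 ^ 2 + w 1 ^ 2 + 1 ≠ 0 := by positivity
  funext i
  fin_cases i
  · simp only [lsph_g, lsph_one]
    simp only [lsph_j, Fin.zero_eta, Matrix.cons_val_zero]
    field_simp
  · simp only [lsph_g, lsph_one]
    simp only [lsph_j, Fin.mk_one, Matrix.cons_val_one, Matrix.cons_val_zero]
    field_simp

theorem lsph_jg {y : S2} (hy : y ≠ lsph_n) : lsph_j (lsph_g y) = y := by
  have h := lsph_ne hy
  obtain ⟨⟨a, b, c⟩, hd⟩ := y
  have h0 : a * a + b * b + c * c = 1 := hd
  simp only at h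
  have e : (b / (1 - a)) ^ 2 + (c / (1 - a)) ^ 2 = (1 + a) / (1 - a) := by
    field_simp
    linear_combination h0
  have e1 : (1 + a) / (1 - a) + 1 = 2 / (1 - a) := by
    field_simp
    ring
  refine Subtype.ext ?_
  simp only [lsph_j, lsph_g, Matrix.cons_val_zero, Matrix.cons_val_one, e, e1, Prod.mk.injEq]
  refine ⟨?_, ?_, ?_⟩ <;> field_simp
  ring

theorem lsph_jn (w : Fin 2 → ℝ) : lsph_j w ≠ lsph_n := by
  intro h
  have h1 := lsph_one w
  have h2 : 0 < 2 / (w 0 ^ 2 + w 1 ^ 2 + 1) := by positivity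
  rw [h] at h1
  simp only [lsph_n] at h1
  linarith

/-- the chart -/
def lsph_e : OpenPartialHomeomorph (Fin 2 → ℝ) S2 where
  toFun := lsph_j
  invFun := lsph_g
  source := univ
  target := {lsph_n}ᶜ
  map_source' w _ := lsph_jn w
  map_target' _ _ := mem_univ _
  left_inv' w _ := lsph_gj w
  right_inv' _ hy := lsph_jg hy
  open_source := isOpen_univ
  open_target := isOpen_compl_singleton
  continuousOn_toFun := by
    refine Continuous.continuousOn (Continuous.subtype_mk ?_ _)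
    have : ∀ w : Fin 2 → ℝ, w 0 ^ 2 + w 1 ^ 2 + 1 ≠ 0 := fun w => by positivity
    fun_prop (disch := exact this _)
  continuousOn_invFun := by
    refine continuousOn_pi.2 fun i => ?_
    fin_cases i
    · exact ContinuousOn.div (f := fun y : S2 => y.1.2.1) (g := fun y : S2 => 1 - y.1.1)
        (by fun_prop) (by fun_prop) fun y hy => lsph_ne hy
    · exact ContinuousOn.div (f := fun y : S2 => y.1.2.2) (g := fun y : S2 => 1 - y.1.1)
        (by fun_prop) (by fun_prop) fun y hy => lsph_ne hy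

theorem stereo : ∃ (n : S2) (j : (Fin 2 → ℝ) → S2), IsOpenEmbedding j ∧ range j = {n}ᶜ := by
  refine ⟨lsph_n, lsph_e, lsph_e.isOpenEmbedding rfl, ?_⟩
  rw [← image_univ]
  exact lsph_e.image_source_eq_target

theorem sph_betti {N : Type} [MetricSpace N] [CompactSpace N] {τ : N → Circle} (hτ : Continuous τ)
    {b : ℕ → ℕ} (hb : HT N τ b) : HT (N × S2) (fun x => τ x.1) fun n => b n + sh 2 b n := by
  have := compact_S2
  obtain ⟨y, c, hc, hr⟩ := stereo
  have h1 : IsOpenEmbedding (Prod.map id c : N × (Fin 2 → ℝ) → N × S2) :=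
    IsOpenEmbedding.id.prodMap hc
  have h2 : IsClosedEmbedding (fun w : N => (w, y)) :=
    Function.LeftInverse.isClosedEmbedding (f := Prod.fst) (fun _ => rfl) continuous_fst
      (by fun_prop)
  have h3 : range (fun w : N => (w, y)) =
      (range (Prod.map id c : N × (Fin 2 → ℝ) → N × S2))ᶜ := by
    ext ⟨w, z⟩
    rw [range_prodMap, range_id, mem_compl_iff, mem_prod, hr]
    constructor
    · rintro ⟨w', e⟩ h
      exact h.2 (congrArg Prod.snd e).symm
    · intro h
      have hz : z = y := by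
        by_contra h'
        exact h ⟨mem_univ _, h'⟩
      exact ⟨w, by rw [hz]⟩
  refine (ht_split (τ := fun p : N × S2 => τ p.1) (hτ.comp continuous_fst) h1 h2 h3
    isProperMap_fst_of_compactSpace (fun _ => rfl) (fun _ => rfl) _).2 ?_
  exact ⟨sh 2 b, b, (ht_pi hτ 2 _).2 ⟨b, hb, rfl⟩, hb, funext fun n => by
    rw [Pi.add_apply, add_comm]⟩

theorem lsph_ne0 (y : S2) : y.1 ≠ 0 := fun h => by
  have := y.2
  rw [h] at this
  simp [dot] at this

theorem lsph_smul (c : ℝ) (y : R3) : dot (c • y) (c • y) = c ^ 2 * dot y y := by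
  simp only [dot, Prod.smul_fst, Prod.smul_snd, smul_eq_mul]
  ring

theorem lsph_pos {y : R3} (hy : y ≠ 0) : 0 < dot y y := by
  obtain ⟨a, b, c⟩ := y
  have h1 := mul_self_nonneg a
  have h2 := mul_self_nonneg b
  have h3 := mul_self_nonneg c
  by_contra h
  have h0 : a * a + b * b + c * c ≤ 0 := not_lt.1 h
  have ha : a = 0 := mul_self_eq_zero.1 (by linarith)
  have hb : b = 0 := mul_self_eq_zero.1 (by linarith)
  have hc : c = 0 := mul_self_eq_zero.1 (by linarith)
  exact hy (by rw [ha, hb, hc]; rfl)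

theorem IsNil.homeo {N M : Type} [TopologicalSpace N] [TopologicalSpace M] [T2Space M]
    {p : R4 → N} (h : IsNil p) {π : E7 → M} (hc : ContinuousOn π {z | z.2 ≠ 0})
    (hs : ∀ m, ∃ z : E7, z.2 ≠ 0 ∧ π z = m)
    (he : ∀ z z' : E7, z.2 ≠ 0 → z'.2 ≠ 0 → (π z = π z' ↔ Rel7 z z')) :
    Nonempty (N × S2 ≃ₜ M) := by
  have := compact_S2
  have := h.compact
  have hsur := h.oq.surjective
  let f : N × S2 → M := fun x => π (Function.surjInv hsur x.1, x.2.1)
  have hf : ∀ (u : R4) (y : S2), f (p u, y) = π (u, y.1) := fun u y =>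
    (he _ _ (lsph_ne0 y) (lsph_ne0 y)).2
      ⟨(h.eq _ _).1 (Function.surjInv_eq hsur (p u)), 1, one_pos, (one_smul _ _).symm⟩
  have hcont : Continuous f := by
    rw [(h.oq.prodMap (IsOpenQuotientMap.id (X := S2))).isQuotientMap.continuous_iff]
    have e : f ∘ Prod.map p id = fun x : R4 × S2 => π (x.1, x.2.1) :=
      funext fun x => hf x.1 x.2
    rw [e]
    exact hc.comp_continuous (by fun_prop) fun x => lsph_ne0 x.2
  have hinj : Function.Injective f := by
    rintro ⟨x, y⟩ ⟨x', y'⟩ e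
    obtain ⟨u, rfl⟩ := hsur x
    obtain ⟨u', rfl⟩ := hsur x'
    rw [hf, hf] at e
    obtain ⟨h1, c, hc0, h2⟩ := (he _ _ (lsph_ne0 y) (lsph_ne0 y')).1 e
    have h2' : y'.1 = c • y.1 := h2
    have h3 := y'.2
    rw [h2', lsph_smul, y.2, mul_one] at h3
    have h4 : c = 1 := by nlinarith
    rw [h4, one_smul] at h2'
    exact Prod.ext ((h.eq _ _).2 h1) (Subtype.ext h2'.symm)
  have hsurj : Function.Surjective f := by
    intro m
    obtain ⟨z, hz, rfl⟩ := hs m
    have hpos := lsph_pos hz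
    have hsq : 0 < √(dot z.2 z.2) := Real.sqrt_pos.2 hpos
    have hd : dot ((√(dot z.2 z.2))⁻¹ • z.2) ((√(dot z.2 z.2))⁻¹ • z.2) = 1 := by
      rw [lsph_smul, inv_pow, Real.sq_sqrt hpos.le, inv_mul_cancel₀ hpos.ne']
    refine ⟨(p z.1, ⟨_, hd⟩), ?_⟩
    rw [hf]
    exact ((he z (z.1, (√(dot z.2 z.2))⁻¹ • z.2) hz (lsph_ne0 ⟨_, hd⟩)).2
      ⟨Rel4.refl _, _, inv_pos.2 hsq, rfl⟩).symm
  exact ⟨Continuous.homeoOfEquivCompactToT2 (f := Equiv.ofBijective f ⟨hinj, hsurj⟩) hcont⟩

end Vale.Agent.P265.L
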