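import Vale.Agent.P265.Base

/-! P265 block L: the interface in abstract form (owner helper98). DO NOT EDIT. -/

namespace Vale.Agent.P265

open scoped Manifold ContDiff

/-- Output of block L: any compact manifold which is topologically `Omega / Rel7` has stable Morse
number at least 17. -/
def LowerM : Prop :=
  ∀ (M : Type) [TopologicalSpace M] [T2Space M] [CompactSpace M] [ChartedSpace E6 M]
    [IsManifold 𝓘(ℝ, E6) ∞ M] (π : E7 → M), ContinuousOn π {z | z.2 ≠ 0} →
    (∀ m, ∃ z : E7, z.2 ≠ 0 ∧ π z = m) →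
    (∀ z z' : E7, z.2 ≠ 0 → z'.2 ≠ 0 → (π z = π z' ↔ Rel7 z z')) → 17 ≤ stableMorse E6 M

end Vale.Agent.P265
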