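import Vale.Agent.P265.Base
import Vale.Agent.P265.T.Defs

/-! P265 part L: definitions. DO NOT EDIT (ask helper98). -/

open Set Topology Filter

noncomputable section
namespace Vale.Agent.P265.L

/-- `p` presents `N` as the quotient of `R4` by `Rel4`. -/
structure IsNil {N : Type} [TopologicalSpace N] (p : R4 → N) : Prop where
  oq : IsOpenQuotientMap p
  eq : ∀ u v, p u = p v ↔ Rel4 u v

/-- The orbit relation as a setoid. -/
def relS : Setoid R4 := ⟨Rel4, ⟨Rel4.refl, Rel4.symm, Rel4.trans⟩⟩

/-- The quotient. -/
abbrev Nil : Type := Quotient relS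

/-- The unit sphere. -/
abbrev S2 : Type := {y : R3 // dot y y = 1}

end Vale.Agent.P265.L
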