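import Vale.Agent.P265.L.Defs

/-! Part L: the nilmanifold. PLAN. isNil_mk: the saturation of an open set U is the union over m n a b of the preimages of U under the continuous maps act m n a b (use Rel4.symm); isOpenMap via isQuotientMap_quotient_mk'.isOpen_preimage. compact: every point is related to a point of the box Icc 0 1 (first act (-⌊s⌋) (-⌊t⌋) 0 0, then act_trans with floors; see Vale/Agent/P265/M/Top.lean).
sig, flow: define through Function.surjInv h.oq.surjective; well defined by h.eq (Circle.exp (2π (s + m)) = Circle.exp (2π s); act commutes with translations in s, t); continuity by h.oq.isQuotientMap.continuous_iff, and for the flow (IsOpenQuotientMap.id.prodMap h.oq).isQuotientMap.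
fibre: j (z, w) = p (0, 0, arg z / (2π), arg w / (2π)); j ∘ (exp × exp) = p (0, 0, a / 2π, b / 2π) is continuous and exp × exp is an open quotient map (Circle.isCoveringMap_exp.isOpenMap, Circle.exp_surjective; Circle.exp_eq_exp); injective: Rel4 forces m = n = 0; Continuous.isClosedEmbedding.
range: Circle.exp (2π s) = 1 iff s is an integer (Circle.exp_eq_one). -/

open Set Topology Filter

noncomputable section
namespace Vale.Agent.P265.L

theorem lnil_desc {A B C : Type} [TopologicalSpace A] [TopologicalSpace B] [TopologicalSpace C]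
    {q : A → B} (hq : IsQuotientMap q) {f : A → C} (hf : Continuous f)
    (h : ∀ u v, q u = q v → f u = f v) : ∃ g : B → C, Continuous g ∧ ∀ u, g (q u) = f u := by
  have e : ∀ u, (f ∘ Function.surjInv hq.surjective) (q u) = f u := fun u =>
    h _ _ (Function.surjInv_eq _ _)
  exact ⟨_, hq.continuous_iff.2 (hf.congr fun u => (e u).symm), e⟩

theorem lnil_cont (m n a b : ℤ) : Continuous (act m n a b) := by
  unfold act
  fun_prop

theorem lnil_exp (s : ℝ) (m : ℤ) :
    Circle.exp (2 * Real.pi * s) = Circle.exp (2 * Real.pi * (s + m)) :=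
  (Circle.exp_eq_exp.2 ⟨m, by ring⟩).symm

theorem lnil_int {s : ℝ} (h : Circle.exp (2 * Real.pi * s) = 1) : ∃ m : ℤ, s = m := by
  obtain ⟨m, hm⟩ := Circle.exp_eq_one.1 h
  exact ⟨m, mul_left_cancel₀ Real.two_pi_pos.ne' (hm.trans (mul_comm _ _))⟩

theorem isNil_mk : IsNil (Quotient.mk relS) := by
  refine ⟨⟨Quotient.mk_surjective, continuous_quotient_mk', fun U hU => isOpen_coinduced.2 ?_⟩,
    fun u v => Quotient.eq⟩
  have e : Quotient.mk relS ⁻¹' (Quotient.mk relS '' U) =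
      ⋃ m, ⋃ n, ⋃ a, ⋃ b, act m n a b ⁻¹' U := by
    ext u
    simp only [mem_iUnion, mem_preimage]
    constructor
    · rintro ⟨v, hv, h⟩
      obtain ⟨m, n, a, b, rfl⟩ : Rel4 u v := Quotient.exact h.symm
      exact ⟨m, n, a, b, hv⟩
    · rintro ⟨m, n, a, b, h⟩
      exact ⟨_, h, (Quotient.sound (s := relS) ⟨m, n, a, b, rfl⟩).symm⟩
  change IsOpen (Quotient.mk relS ⁻¹' (Quotient.mk relS '' U))
  rw [e]
  exact isOpen_iUnion fun m => isOpen_iUnion fun n => isOpen_iUnion fun a =>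
    isOpen_iUnion fun b => hU.preimage (lnil_cont m n a b)

variable {N : Type} [TopologicalSpace N] {p : R4 → N}

theorem IsNil.compact (h : IsNil p) : CompactSpace N := by
  refine ⟨((isCompact_Icc (a := (0 : R4)) (b := 1)).image h.oq.continuous).of_isClosed_subset
    isClosed_univ fun x _ => ?_⟩
  obtain ⟨u, rfl⟩ := h.oq.surjective x
  obtain ⟨v, hv, h1, h2⟩ : ∃ v, Rel4 u v ∧ v.1 = Int.fract u.1 ∧ v.2.1 = Int.fract u.2.1 :=
    ⟨act (-⌊u.1⌋) (-⌊u.2.1⌋) 0 0 u, ⟨_, _, _, _, rfl⟩, by simp [act, Int.fract, sub_eq_add_neg],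
      by simp [act, Int.fract, sub_eq_add_neg]⟩
  refine ⟨(v.1, v.2.1, Int.fract v.2.2.1, Int.fract v.2.2.2), ?_,
    ((h.eq _ _).2 (hv.trans ⟨0, 0, -⌊v.2.2.1⌋, -⌊v.2.2.2⌋, ?_⟩)).symm⟩
  · rw [h1, h2]
    exact ⟨⟨Int.fract_nonneg _, Int.fract_nonneg _, Int.fract_nonneg _, Int.fract_nonneg _⟩,
      (Int.fract_lt_one _).le, (Int.fract_lt_one _).le, (Int.fract_lt_one _).le,
      (Int.fract_lt_one _).le⟩
  · simp [act_trans, Int.fract, sub_eq_add_neg]

theorem IsNil.sig (h : IsNil p) : ∃ σs σt : N → Circle, Continuous σs ∧ Continuous σt ∧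
    (∀ u, σs (p u) = Circle.exp (2 * Real.pi * u.1)) ∧
    ∀ u, σt (p u) = Circle.exp (2 * Real.pi * u.2.1) := by
  obtain ⟨f, hf, e⟩ := lnil_desc h.oq.isQuotientMap
    (f := fun u : R4 => Circle.exp (2 * Real.pi * u.1)) (by fun_prop) fun u v huv => by
      obtain ⟨m, n, a, b, rfl⟩ := (h.eq _ _).1 huv
      exact lnil_exp _ m
  obtain ⟨g, hg, e'⟩ := lnil_desc h.oq.isQuotientMap
    (f := fun u : R4 => Circle.exp (2 * Real.pi * u.2.1)) (by fun_prop) fun u v huv => by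
      obtain ⟨m, n, a, b, rfl⟩ := (h.eq _ _).1 huv
      exact lnil_exp _ n
  exact ⟨f, g, hf, hg, e, e'⟩

theorem IsNil.flow (h : IsNil p) (a b : ℝ) :
    ∃ φ : Flow ℝ N, ∀ r u, φ r (p u) = p (u.1 + r * a, u.2.1 + r * b, u.2.2) := by
  obtain ⟨g, hg, e⟩ := lnil_desc ((IsOpenQuotientMap.id (X := ℝ)).prodMap h.oq).isQuotientMap
    (f := fun w : ℝ × R4 => p (w.2.1 + w.1 * a, w.2.2.1 + w.1 * b, w.2.2.2))
    (h.oq.continuous.comp (by fun_prop)) fun ⟨r, u⟩ ⟨r', v⟩ huv => by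
      obtain ⟨h1, h2⟩ := Prod.mk.inj huv
      obtain rfl : r = r' := h1
      obtain ⟨m, n, k, l, rfl⟩ := (h.eq _ _).1 h2
      exact (h.eq _ _).2 ⟨m, n, k, l, by simp only [act, add_right_comm]⟩
  have e' : ∀ r u, g (r, p u) = p (u.1 + r * a, u.2.1 + r * b, u.2.2) := fun r u => e (r, u)
  refine ⟨⟨fun r x => g (r, x), hg, fun r s x => ?_, fun x => ?_⟩, e'⟩
  · obtain ⟨u, rfl⟩ := h.oq.surjective x
    simp only [e', add_mul, add_assoc, add_comm (r * a), add_comm (r * b)]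
  · obtain ⟨u, rfl⟩ := h.oq.surjective x
    simp only [e', zero_mul, add_zero]

theorem IsNil.fibre [T2Space N] (h : IsNil p) {σs σt : N → Circle}
    (hs : ∀ u, σs (p u) = Circle.exp (2 * Real.pi * u.1))
    (ht : ∀ u, σt (p u) = Circle.exp (2 * Real.pi * u.2.1)) :
    ∃ j : Circle × Circle → N, IsClosedEmbedding j ∧ range j = {x | σs x = 1 ∧ σt x = 1} := by
  have hq : IsOpenQuotientMap Circle.exp :=
    ⟨Circle.exp_surjective, Circle.exp.continuous, Circle.isCoveringMap_exp.isOpenMap⟩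
  have h2 := Real.two_pi_pos.ne'
  obtain ⟨j, hj, e⟩ := lnil_desc (hq.prodMap hq).isQuotientMap
    (f := fun w : ℝ × ℝ => p (0, 0, w.1 / (2 * Real.pi), w.2 / (2 * Real.pi)))
    (h.oq.continuous.comp (by fun_prop)) fun ⟨a, b⟩ ⟨a', b'⟩ huv => by
      obtain ⟨h3, h4⟩ := Prod.mk.inj huv
      obtain ⟨m, rfl⟩ := Circle.exp_eq_exp.1 h3
      obtain ⟨n, rfl⟩ := Circle.exp_eq_exp.1 h4
      exact ((h.eq _ _).2 ⟨0, 0, m, n, by
        simp only [act_trans, add_div, mul_div_cancel_right₀ _ h2]⟩).symm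
  have e' : ∀ a b, j (Circle.exp (2 * Real.pi * a), Circle.exp (2 * Real.pi * b)) =
      p (0, 0, a, b) := fun a b => by
    simpa only [mul_div_cancel_left₀ _ h2, Prod.map_apply] using e (2 * Real.pi * a, 2 * Real.pi * b)
  have hsur : ∀ z : Circle, ∃ a, Circle.exp (2 * Real.pi * a) = z := fun z => by
    obtain ⟨a, rfl⟩ := Circle.exp_surjective z
    exact ⟨a / (2 * Real.pi), by rw [mul_div_cancel₀ _ h2]⟩
  refine ⟨j, hj.isClosedEmbedding ?_, Subset.antisymm ?_ ?_⟩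
  · rintro ⟨z, w⟩ ⟨z', w'⟩ hzw
    obtain ⟨a, rfl⟩ := hsur z
    obtain ⟨b, rfl⟩ := hsur w
    obtain ⟨a', rfl⟩ := hsur z'
    obtain ⟨b', rfl⟩ := hsur w'
    rw [e', e'] at hzw
    obtain ⟨m, n, k, l, h3⟩ := (h.eq _ _).1 hzw
    obtain rfl : m = 0 := by simpa [act] using (congrArg Prod.fst h3).symm
    obtain rfl : n = 0 := by simpa [act] using (congrArg (fun u : R4 => u.2.1) h3).symm
    rw [act_trans] at h3
    simp only [Prod.mk.injEq, true_and] at h3
    rw [h3.1, h3.2, ← lnil_exp, ← lnil_exp]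
  · rintro _ ⟨⟨z, w⟩, rfl⟩
    obtain ⟨a, rfl⟩ := hsur z
    obtain ⟨b, rfl⟩ := hsur w
    simp only [mem_ofPred_eq, e', hs, ht, mul_zero, Circle.exp_zero, and_self]
  · intro x hx
    obtain ⟨u, rfl⟩ := h.oq.surjective x
    obtain ⟨m, hm⟩ := lnil_int ((hs u).symm.trans hx.1)
    obtain ⟨n, hn⟩ := lnil_int ((ht u).symm.trans hx.2)
    refine ⟨_, (e' (act (-m) (-n) 0 0 u).2.2.1 (act (-m) (-n) 0 0 u).2.2.2).trans
      ((h.eq _ _).2 ⟨-m, -n, 0, 0, ?_⟩).symm⟩
    exact Prod.ext (by simp [act, hm]) (Prod.ext (by simp [act, hn]) rfl)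

end Vale.Agent.P265.L
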